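import Vale.Agent.Helper6.P074Every

/-!
# The cube-root rate for every source domain

For every dimension `d ≥ 2` and every compact `K ⊆ R^d` with nonempty interior (in particular
every convex body), with `ρ` the uniform probability measure on `K`:

* there is `c > 0` such that for every `ε > 0` there are probability measures `μ`, `ν`
  carried by the cube `[-1, 1]^d` and quadratic optimal transport maps `S`, `T` from `ρ` to
  `μ`, `ν` with `0 < W_2(μ, ν) ≤ ε` and `‖S - T‖_{L^2(ρ)} ≥ c * W_2(μ, ν) ^ (1/3)`;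
* hence for every `α > 1/3` there is no constant `C` with
  `‖S - T‖_{L^2(ρ)} ≤ C * W_2(μ, ν) ^ α` for all such `μ`, `ν`, `S`, `T`.
-/

namespace Vale.Agent.Results.P074.AnyBodyCubeRootRate

open MeasureTheory Vale.Agent.Helper16.OT

theorem result : ∀ d : ℕ, 2 ≤ d → ∀ K : Set (Fin d → ℝ), IsCompact K →
    (interior K).Nonempty →
    (∃ c : ℝ, 0 < c ∧ ∀ ε : ℝ, 0 < ε →
      ∃ (μ ν : Measure (Fin d → ℝ)) (S T : (Fin d → ℝ) → (Fin d → ℝ)),
        IsProbabilityMeasure μ ∧ IsProbabilityMeasure ν ∧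
        μ (Set.Icc (-1) 1)ᶜ = 0 ∧ ν (Set.Icc (-1) 1)ᶜ = 0 ∧
        IsOptMap (unif K) μ S ∧ IsOptMap (unif K) ν T ∧
        0 < W2 μ ν ∧ W2 μ ν ≤ ε ∧ c * W2 μ ν ^ (1 / 3 : ℝ) ≤ L2dist (unif K) S T) ∧
    (∀ α : ℝ, 1 / 3 < α →
      ¬ ∃ C : ℝ, ∀ μ ν : Measure (Fin d → ℝ),
        IsProbabilityMeasure μ → IsProbabilityMeasure ν →
        μ (Set.Icc (-1) 1)ᶜ = 0 → ν (Set.Icc (-1) 1)ᶜ = 0 →
        ∀ S T : (Fin d → ℝ) → (Fin d → ℝ),
          IsOptMap (unif K) μ S → IsOptMap (unif K) ν T →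
          L2dist (unif K) S T ≤ C * W2 μ ν ^ α) :=
  fun d hd K hK hint =>
    ⟨Vale.Agent.Helper6.P074.cube_root_rate d hd K hK hint,
      fun α hα => Vale.Agent.Helper6.P074.no_exponent_above_third d hd K hK hint α hα⟩

end Vale.Agent.Results.P074.AnyBodyCubeRootRate
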