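import Vale.Agent.Helper6.P074Every

/-!
# No stability exponent above 1/3, for every source domain

For every dimension `d ≥ 2`, every compact `K ⊆ R^d` with nonempty interior (in particular
every convex body) and every `α > 1/3` there is no constant `C` with
`‖S - T‖_{L^2(ρ)} ≤ C * W_2(μ, ν) ^ α` for all probability measures `μ`, `ν` carried by the
cube `[-1, 1]^d` and all quadratic optimal transport maps `S`, `T` from `ρ` (the uniform
probability measure on `K`) to `μ`, `ν`.
-/

namespace Vale.Agent.Results.P074.AnyBodyNoExponentAboveOneThird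

open MeasureTheory Vale.Agent.Helper16.OT

theorem result : ∀ d : ℕ, 2 ≤ d → ∀ K : Set (Fin d → ℝ), IsCompact K →
    (interior K).Nonempty → ∀ α : ℝ, 1 / 3 < α →
    ¬ ∃ C : ℝ, ∀ μ ν : Measure (Fin d → ℝ),
      IsProbabilityMeasure μ → IsProbabilityMeasure ν →
      μ (Set.Icc (-1) 1)ᶜ = 0 → ν (Set.Icc (-1) 1)ᶜ = 0 →
      ∀ S T : (Fin d → ℝ) → (Fin d → ℝ),
        IsOptMap (unif K) μ S → IsOptMap (unif K) ν T →
        L2dist (unif K) S T ≤ C * W2 μ ν ^ α :=
  Vale.Agent.Helper6.P074.no_exponent_above_third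

end Vale.Agent.Results.P074.AnyBodyNoExponentAboveOneThird
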