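import Vale.Agent.Helper16.OT.NotAdmissible

/-!
# The stability exponent of quadratic optimal transport maps is at most 1/3

For every dimension `d ≥ 2` no exponent `α > 1/3` is admissible: there is a compact
convex source domain (the unit cube) and a compact target region for which no
constant `C` gives `‖T_μ - T_ν‖_{L^2(ρ)} ≤ C * W_2(μ, ν) ^ α` for all probability
measures `μ`, `ν` supported in the region.
-/

namespace Vale.Agent.Results.P074.ExponentAtMostOneThird

open Vale.Agent.Helper16.OT

theorem result : ∀ d : ℕ, 2 ≤ d → ∀ α : ℝ, 1 / 3 < α → ¬ Admissible d α :=
  not_admissible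

end Vale.Agent.Results.P074.ExponentAtMostOneThird
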