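import Vale.Agent.Helper27.P074Opt

namespace Vale.Agent.Results.P074.NoExponentAboveOneThirdENNReal

open Vale.Agent.Helper27.P074Defs

/-- In every dimension `d ≥ 2`, no exponent `α > 1/3` is admissible: already for the unit cube as
source (and as the compact set carrying the targets) there is no constant `C` with
`‖T_μ - T_ν‖_{L^2(ρ)} ≤ C * W_2(μ, ν)^α`. The inequality is stated in `[0, ∞]`. -/
theorem result (d : ℕ) (hd : 2 ≤ d) (α : ℝ) (hα : 1 / 3 < α) : ¬ Admissible d α :=
  Vale.Agent.Helper27.P074Opt.not_admissible hd hα

end Vale.Agent.Results.P074.NoExponentAboveOneThirdENNReal
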